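import Vale.Agent.P372B.Err
import Vale.Agent.P372B.Intr

/-! # P372: bipartite bound information exists -/

namespace Vale.Agent.Results.P372.BoundInformation

open Vale.Agent.P372B

/-- `P` is a probability distribution of a triple `(X, Y, Z)` such that
(1) no public-discussion protocol on any number of independent copies produces a secret key of `l ≥ 1`
bits with error below `1/2` (in total variation norm, against any distribution of Eve's data), and
(2) nevertheless the intrinsic information is positive: `I(X;Y|W) ≥ 1/2916` for every channel from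
`Z` to `W`. -/
theorem result :
    (∀ x y z, 0 ≤ P x y z) ∧ (∑ x, ∑ y, ∑ z, P x y z = 1) ∧
    (∀ (n l : ℕ), 0 < l → ∀ (π : Protocol n l)
      (σ : (Fin n → Option (Fin 3 × Fin 3)) → (Fin π.r → Bool × Bool) → ℝ), 1 / 2 ≤ π.err σ) ∧
    (∀ (m : ℕ) (W : Option (Fin 3 × Fin 3) → Fin m → ℝ), (∀ z w, 0 ≤ W z w) →
      (∀ z, ∑ w, W z w = 1) → 1 / 2916 ≤ condInfo W) :=
  ⟨P_nonneg, sum_letter, fun _ _ hl π σ => π.err_ge hl σ, fun _ W h h1 => intr W h h1⟩

end Vale.Agent.Results.P372.BoundInformation
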