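import Vale.Agent.P372Q.Main6
import Vale.Agent.P372Q.Main

open Matrix Vale.Agent.P372Q
open scoped Kronecker ComplexOrder

theorem Vale.Agent.Results.P372.Characterisation.result :
    (∀ (a b e : Type) [Fintype a] [DecidableEq a] [Fintype b] [DecidableEq b] [Fintype e]
      [DecidableEq e] (ρ : Matrix (a × b) (a × b) ℂ) (R : Matrix (a × b) e ℂ), ρ.trace = 1 →
      R * Rᴴ = ρ →
      (0 < KD R ↔ ∃ n : ℕ, 1 ≤ n ∧ ∃ (s s' : Type) (_ : Fintype s) (_ : DecidableEq s)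
        (_ : Fintype s') (_ : DecidableEq s') (K : ZMod 2 → Matrix s (Fin n → a) ℂ)
        (L : ZMod 2 → Matrix s' (Fin n → b) ℂ) (U : Matrix (s × s') (s × s') ℂ), Uᴴ * U = 1 ∧
        (((K 0 ⊗ₖ L 0) * pw ρ n * (K 0 ⊗ₖ L 0)ᴴ).trace.re *
            ((K 1 ⊗ₖ L 1) * pw ρ n * (K 1 ⊗ₖ L 1)ᴴ).trace.re) *
          (((K 0 ⊗ₖ L 1) * pw ρ n * (K 0 ⊗ₖ L 1)ᴴ).trace.re *
            ((K 1 ⊗ₖ L 0) * pw ρ n * (K 1 ⊗ₖ L 0)ᴴ).trace.re) <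
          ‖(U * (K 1 ⊗ₖ L 1) * pw ρ n * (K 0 ⊗ₖ L 0)ᴴ).trace‖ ^ 4)) ∧
    (∀ (a b e : Type) [Fintype a] [DecidableEq a] [Fintype b] [DecidableEq b] [Fintype e]
      [DecidableEq e] (ρ : Matrix (a × b) (a × b) ℂ) (R : Matrix (a × b) e ℂ), ρ.trace = 1 →
      R * Rᴴ = ρ →
      (0 < KD R ↔ ∃ n : ℕ, 1 ≤ n ∧ ∃ ℓ : ℕ, 1 ≤ ℓ ∧ Ach (copies R n) ℓ (1 / 5))) ∧
    (∀ (a b : Type) [Fintype a] [DecidableEq a] [Fintype b] [DecidableEq b],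
      ∃ O : Set (Matrix (a × b) (a × b) ℂ), IsOpen O ∧
        ∀ (ρ : Matrix (a × b) (a × b) ℂ), ρ.trace = 1 → ∀ (e : Type) [Fintype e] [DecidableEq e]
          (R : Matrix (a × b) e ℂ), R * Rᴴ = ρ → (0 < KD R ↔ ρ ∈ O)) ∧
    (∀ (a b e : Type) [Fintype a] [DecidableEq a] [Fintype b] [DecidableEq b] [Fintype e]
      [DecidableEq e] (ρ : Matrix (a × b) (a × b) ℂ) (R : Matrix (a × b) e ℂ), ρ.trace = 1 →
      R * Rᴴ = ρ → ∀ (VA : Matrix (Fin 3) a ℂ) (VB : Matrix (Fin 3) b ℂ)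
        (n : Fin 3 → Fin 3 → ℝ), (∀ i j, i ≠ j → 0 ≤ n i j) →
        (VA ⊗ₖ VB) * ρ * (VA ⊗ₖ VB)ᴴ = famC (fun _ => 1) n → n 1 0 * n 2 1 * n 0 2 < 1 →
        0 < KD R) ∧
    (∀ (c : Fin 3 → ℝ) (n : Fin 3 → Fin 3 → ℝ), (∀ i, 0 < c i) → (∀ i j, i ≠ j → 0 ≤ n i j) →
      (famC c n).trace = 1 → (famC c n).PosSemidef ∧
        (Cyc c n → IsSeparable (famC c n)) ∧
        (¬ Cyc c n → ∀ (e : Type) [Fintype e] [DecidableEq e] (R : Matrix (Fin 3 × Fin 3) e ℂ),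
          R * Rᴴ = famC c n → 0 < KD R)) ∧
    (∀ s t : ℝ, 0 < s → 0 < t →
      ((rho s t).PosSemidef ∧ (rho s t).trace = 1) ∧
      ((ptr (rho s t)).PosSemidef ↔ 1 ≤ s * t) ∧
      (1 ≤ s → 1 ≤ t → IsSeparable (rho s t)) ∧
      (t < 1 → ∀ (e : Type) [Fintype e] [DecidableEq e] (R : Matrix (Fin 3 × Fin 3) e ℂ),
        R * Rᴴ = rho s t → 0 < KD R)) := by
  refine ⟨?_, ?_, ?_, ?_, ?_, ?_⟩
  · intro a b e _ _ _ _ _ _ ρ R hρ hR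
    exact KD_iff ρ hρ R hR
  · intro a b e _ _ _ _ _ _ ρ R hρ hR
    exact KD_threshold ρ hρ R hR
  · intro a b _ _ _ _
    exact KD_open a b
  · intro a b e _ _ _ _ _ _ ρ R hρ hR VA VB n hn hV hcyc
    exact KD_three ρ hρ VA VB n hn hV hcyc R hR
  · intro c n hc hn htr
    exact ⟨famC_psd c n hn, famC_sep c hc n hn, fun h e _ _ R hR => KD_dich c hc n hn htr h R hR⟩
  · intro s t hs ht
    exact ⟨rho_state hs ht, rho_ppt hs ht, fun h1 h2 => rho_separable h1 h2,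
      fun h1 e _ _ R hR => KD_rho_pos hs ht h1 R hR⟩
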