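import Vale.Agent.P372Q.Main5

open Matrix Vale.Agent.P372Q
open scoped Kronecker ComplexOrder

theorem Vale.Agent.Results.P372.CriterionDichotomy.result :
    (∀ (a b e s s' : Type) [Fintype a] [DecidableEq a] [Fintype b] [DecidableEq b] [Fintype e]
      [DecidableEq e] [Fintype s] [DecidableEq s] [Fintype s'] [DecidableEq s']
      (ρ : Matrix (a × b) (a × b) ℂ) (R : Matrix (a × b) e ℂ), ρ.trace = 1 → R * Rᴴ = ρ →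
      ∀ n : ℕ, 1 ≤ n → ∀ (K : ZMod 2 → Matrix s (Fin n → a) ℂ)
        (L : ZMod 2 → Matrix s' (Fin n → b) ℂ) (U : Matrix (s × s') (s × s') ℂ), Uᴴ * U = 1 →
        (((K 0 ⊗ₖ L 0) * pw ρ n * (K 0 ⊗ₖ L 0)ᴴ).trace.re *
            ((K 1 ⊗ₖ L 1) * pw ρ n * (K 1 ⊗ₖ L 1)ᴴ).trace.re) *
          (((K 0 ⊗ₖ L 1) * pw ρ n * (K 0 ⊗ₖ L 1)ᴴ).trace.re *
            ((K 1 ⊗ₖ L 0) * pw ρ n * (K 1 ⊗ₖ L 0)ᴴ).trace.re) <
          ‖(U * (K 1 ⊗ₖ L 1) * pw ρ n * (K 0 ⊗ₖ L 0)ᴴ).trace‖ ^ 4 →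
        0 < KD R) ∧
    (∀ (a b e : Type) [Fintype a] [DecidableEq a] [Fintype b] [DecidableEq b] [Fintype e]
      [DecidableEq e] (ρ : Matrix (a × b) (a × b) ℂ) (R : Matrix (a × b) e ℂ), ρ.trace = 1 →
      R * Rᴴ = ρ → ∀ (VA : Matrix (Fin 3) a ℂ) (VB : Matrix (Fin 3) b ℂ)
        (n : Fin 3 → Fin 3 → ℝ), (∀ i j, i ≠ j → 0 ≤ n i j) →
        (VA ⊗ₖ VB) * ρ * (VA ⊗ₖ VB)ᴴ = famC (fun _ => 1) n → n 1 0 * n 2 1 * n 0 2 < 1 →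
        0 < KD R) ∧
    (∀ (c : Fin 3 → ℝ) (n : Fin 3 → Fin 3 → ℝ), (∀ i, 0 < c i) → (∀ i j, i ≠ j → 0 ≤ n i j) →
      (famC c n).trace = 1 → (famC c n).PosSemidef ∧
        (Cyc c n → IsSeparable (famC c n)) ∧
        (¬ Cyc c n → ∀ (e : Type) [Fintype e] [DecidableEq e] (R : Matrix (Fin 3 × Fin 3) e ℂ),
          R * Rᴴ = famC c n → 0 < KD R)) := by
  refine ⟨?_, ?_, ?_⟩
  · intro a b e s s' _ _ _ _ _ _ _ _ _ _ ρ R hρ hR n hn K L U hU hcrit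
    exact KD_criterion ρ hρ hn K L U hU hcrit R hR
  · intro a b e _ _ _ _ _ _ ρ R hρ hR VA VB n hn hV hcyc
    exact KD_three ρ hρ VA VB n hn hV hcyc R hR
  · intro c n hc hn htr
    exact ⟨famC_psd c n hn, famC_sep c hc n hn, fun h e _ _ R hR => KD_dich c hc n hn htr h R hR⟩
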