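import Vale.Agent.P372Q.Main

open Matrix Vale.Agent.P372Q
open scoped ComplexOrder

theorem Vale.Agent.Results.P372.HorodeckiFamily.result :
    ∀ s t : ℝ, 0 < s → 0 < t →
      ((rho s t).PosSemidef ∧ (rho s t).trace = 1) ∧
      ((ptr (rho s t)).PosSemidef ↔ 1 ≤ s * t) ∧
      (1 ≤ s → 1 ≤ t → IsSeparable (rho s t)) ∧
      (t < 1 → ∀ (e : Type) [Fintype e] [DecidableEq e] (R : Matrix (Fin 3 × Fin 3) e ℂ),
        R * Rᴴ = rho s t → 0 < KD R) := by
  intro s t hs ht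
  exact ⟨rho_state hs ht, rho_ppt hs ht, fun h1 h2 => rho_separable h1 h2,
    fun h1 e _ _ R hR => KD_rho_pos hs ht h1 R hR⟩
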